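import Vale.Agent.P183.Defs

/-! # P183: a checker for congruence lattices of unary algebras given by tables -/

namespace Vale.Agent.P183

def gt (L z : ℕ) : ℕ := L / 128 ^ z % 128

def frc {β : Type} (x : ℕ) (k : ℕ → β) : β := Nat.rec (k 0) (fun y _ => k (Nat.succ y)) x

theorem frc_eq {β : Type} (x : ℕ) (k : ℕ → β) : frc x k = k x := by cases x <;> rfl

def bld (f : ℕ → ℕ) (k : ℕ) : ℕ := Nat.rec 0 (fun k ih => ih + f k % 128 * 128 ^ k) k

theorem bld_succ (f : ℕ → ℕ) (k : ℕ) : bld f (k + 1) = bld f k + f k % 128 * 128 ^ k := rfl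

theorem bld_lt (f : ℕ → ℕ) (k : ℕ) : bld f k < 128 ^ k := by
  induction k with
  | zero => exact Nat.one_pos
  | succ k ih =>
    rw [bld_succ, pow_succ]
    have : f k % 128 < 128 := Nat.mod_lt _ (by norm_num)
    nlinarith

theorem gt_bld (f : ℕ → ℕ) {k z : ℕ} (h : z < k) : gt (bld f k) z = f z % 128 := by
  induction k with
  | zero => omega
  | succ k ih =>
    rw [bld_succ]
    rcases Nat.lt_succ_iff_lt_or_eq.1 h with h1 | rfl
    · rw [← ih h1, gt, gt]
      obtain ⟨d, rfl⟩ := Nat.exists_eq_add_of_lt h1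
      have e : f (z + d + 1) % 128 * 128 ^ (z + d + 1) =
          128 ^ z * (128 * (f (z + d + 1) % 128 * 128 ^ d)) := by ring
      rw [e, Nat.add_mul_div_left _ _ (by positivity), Nat.add_mul_mod_self_left]
    · rw [gt, Nat.add_mul_div_right _ _ (by positivity), Nat.div_eq_of_lt (bld_lt f z), zero_add,
        Nat.mod_mod]

def allB (k : ℕ) (p : ℕ → Bool) : Bool := Nat.rec true (fun k ih => p k && ih) k

theorem allB_iff {k : ℕ} {p : ℕ → Bool} : allB k p = true ↔ ∀ i < k, p i = true := by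
  induction k with
  | zero => simp [allB]
  | succ k ih =>
    change (p k && allB k p) = true ↔ _
    rw [Bool.and_eq_true, ih, Nat.forall_lt_succ_right, and_comm]

def anyB (k : ℕ) (p : ℕ → Bool) : Bool := Nat.rec false (fun k ih => p k || ih) k

theorem anyB_iff {k : ℕ} {p : ℕ → Bool} : anyB k p = true ↔ ∃ i < k, p i = true := by
  induction k with
  | zero => simp [anyB]
  | succ k ih =>
    change (p k || anyB k p) = true ↔ _
    rw [Bool.or_eq_true, ih, Nat.exists_lt_succ_right, or_comm]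

def lk (n L x : ℕ) : ℕ := gt L (x % n)

def mrg (n L x y : ℕ) : ℕ :=
  frc (lk n L x) fun u => frc (lk n L y) fun v =>
    bif Nat.beq u v then L else bld (fun z => frc (gt L z) fun w => bif Nat.beq w v then u else w) n

def loop (f : ℕ → ℕ → ℕ) (k : ℕ) : ℕ → ℕ :=
  Nat.rec (fun L => L) (fun k ih L => frc (f k L) ih) k

def pass (n : ℕ) (ops : List ℕ) (L : ℕ) : ℕ :=
  loop (fun t L => frc (ops.getD t 0) fun T =>
    loop (fun z L => mrg n L (lk n T z) (lk n T (lk n L z))) n L) ops.length L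

def subB (n L P : ℕ) : Bool := allB n fun x => Nat.beq (lk n L x) (lk n L (lk n P x))

def leB (R i j : ℕ) : Bool := Nat.testBit R (8 * i + j)

def ent (n C a b : ℕ) : ℕ := C >>> (20 * (a * n + b)) % 1048576

def pairOK (n m fuel : ℕ) (ops ps : List ℕ) (C a b : ℕ) : Bool :=
  frc (ent n C a b) fun e => frc (e % 8) fun c => frc (e / 8 % 8) fun o =>
    Nat.blt c m && Nat.beq (lk n (ps.getD c 0) a) (lk n (ps.getD c 0) b) &&
    (Nat.beq c 0 || bif Nat.beq o 7 then
        frc (loop (fun _ L => pass n ops L) fuel (mrg n (ps.getD 0 0) a b)) fun L =>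
          subB n L (ps.getD c 0)
      else bif Nat.beq o 6 then
        frc (ent n C b a) fun e' => Nat.beq (e' % 8) c && Nat.blt (e' / 64) (e / 64)
      else Nat.blt o ops.length &&
        frc (ent n C (lk n (ops.getD o 0) a % n) (lk n (ops.getD o 0) b % n)) fun e' =>
          Nat.beq (e' % 8) c && Nat.blt (e' / 64) (e / 64))

def joinOK (n m R : ℕ) (ps : List ℕ) (i j : ℕ) : Bool :=
  leB R i j || leB R j i ||
    frc (loop (fun z L => mrg n L z (lk n (ps.getD j 0) z)) n (ps.getD i 0)) fun L =>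
      anyB m fun k => leB R i k && leB R j k && subB n L (ps.getD k 0)

def check (n m fuel R : ℕ) (ops ps : List ℕ) (C : ℕ) : Bool :=
  Nat.blt 0 n && Nat.blt 0 m && (allB n fun x => Nat.beq (lk n (ps.getD 0 0) x) x) &&
  (allB m fun i => leB R i i && allB m fun j =>
    (leB R i j == subB n (ps.getD j 0) (ps.getD i 0)) && (!leB R i j || Nat.ble i j) &&
    joinOK n m R ps i j) &&
  (allB m fun i => allB ops.length fun t => allB n fun x =>
    Nat.beq (lk n (ps.getD i 0) (lk n (ops.getD t 0) x))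
      (lk n (ps.getD i 0) (lk n (ops.getD t 0) (lk n (ps.getD i 0) x)))) &&
  allB n fun a => allB n fun b => pairOK n m fuel ops ps C a b

theorem lk_mod (n L x : ℕ) : lk n L (x % n) = lk n L x := by rw [lk, Nat.mod_mod, lk]

theorem loop_inv {I : ℕ → Prop} {f : ℕ → ℕ → ℕ} {k : ℕ} (h : ∀ z < k, ∀ L, I L → I (f z L))
    {L : ℕ} (hL : I L) : I (loop f k L) := by
  induction k generalizing L with
  | zero => exact hL
  | succ k ih =>
    change I (frc (f k L) (loop f k))
    rw [frc_eq]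
    exact ih (fun z hz => h z (by omega)) (h k (by omega) L hL)

section
variable {n : ℕ} {ρ : Setoid ℕ}

/-- every point is related to its label -/
def Inv (n : ℕ) (ρ : Setoid ℕ) (L : ℕ) : Prop := ∀ x, ρ x (lk n L x)

theorem mrg_inv (hn : 0 < n) {L x y : ℕ} (hL : Inv n ρ L) (hxy : ρ x y) : Inv n ρ (mrg n L x y) := by
  rw [mrg, frc_eq, frc_eq]
  cases h : Nat.beq (lk n L x) (lk n L y)
  · intro z
    rw [cond_false, lk, gt_bld _ (Nat.mod_lt _ hn), frc_eq]
    have hz : ρ z (gt L (z % n)) := hL z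
    cases h2 : Nat.beq (gt L (z % n)) (lk n L y)
    · rw [cond_false, gt, Nat.mod_mod]
      exact hz
    · rw [cond_true, lk, gt, Nat.mod_mod]
      rw [Nat.eq_of_beq_eq_true h2] at hz
      exact ρ.trans' (ρ.trans' hz (ρ.symm' (hL y))) (ρ.trans' (ρ.symm' hxy) (hL x))
  · exact hL

theorem pass_inv (hn : 0 < n) {ops : List ℕ}
    (hc : ∀ t < ops.length, ∀ x y, ρ x y → ρ (lk n (ops.getD t 0) x) (lk n (ops.getD t 0) y))
    {L : ℕ} (hL : Inv n ρ L) : Inv n ρ (pass n ops L) := by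
  refine loop_inv (fun t ht L hL => ?_) hL
  rw [frc_eq]
  exact loop_inv (fun z _ L hL => mrg_inv hn hL (hc t ht _ _ (hL z))) hL

theorem subB_iff (hn : 0 < n) {L P : ℕ} :
    subB n L P = true ↔ ∀ x, lk n L x = lk n L (lk n P x) := by
  rw [subB, allB_iff]
  simp only [Nat.beq_eq]
  refine ⟨fun h x => ?_, fun h x _ => h x⟩
  have := h _ (Nat.mod_lt x hn)
  rwa [lk_mod, lk_mod] at this

theorem sub_inv (hn : 0 < n) {L P : ℕ} (h : subB n L P = true) (hL : Inv n ρ L) : Inv n ρ P := by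
  intro x
  have h1 := hL x
  rw [(subB_iff hn).1 h x] at h1
  exact ρ.trans' h1 (ρ.symm' (hL _))

theorem pair_inv (hn : 0 < n) {m fuel C : ℕ} {ops ps : List ℕ} (hm : ∀ x, ρ x (x % n))
    (hc : ∀ t < ops.length, ∀ x y, ρ x y → ρ (lk n (ops.getD t 0) x) (lk n (ops.getD t 0) y))
    (h0 : Inv n ρ (ps.getD 0 0))
    (h : ∀ a < n, ∀ b < n, pairOK n m fuel ops ps C a b = true) (r : ℕ) :
    ∀ a < n, ∀ b < n, ent n C a b / 64 = r → ρ a b → Inv n ρ (ps.getD (ent n C a b % 8) 0) := by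
  induction r using Nat.strong_induction_on with
  | _ r ih =>
    intro a ha b hb hr hab
    have := h a ha b hb
    simp only [pairOK, frc_eq, Bool.and_eq_true, Bool.or_eq_true, Nat.beq_eq] at this
    rcases this.2 with h1 | h1
    · rwa [h1]
    · cases h7 : Nat.beq (ent n C a b / 8 % 8) 7
      · rw [h7, cond_false] at h1
        cases h6 : Nat.beq (ent n C a b / 8 % 8) 6
        · rw [h6, cond_false] at h1
          simp only [Bool.and_eq_true, Nat.beq_eq, Nat.blt_eq] at h1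
          rw [← h1.2.1]
          refine ih _ (hr ▸ h1.2.2) _ (Nat.mod_lt _ hn) _ (Nat.mod_lt _ hn) rfl ?_
          exact ρ.trans' (ρ.symm' (hm _)) (ρ.trans' (hc _ h1.1 _ _ hab) (hm _))
        · rw [h6, cond_true] at h1
          simp only [Bool.and_eq_true, Nat.beq_eq, Nat.blt_eq] at h1
          rw [← h1.1]
          exact ih _ (hr ▸ h1.2) _ hb _ ha rfl (ρ.symm' hab)
      · rw [h7, cond_true] at h1
        exact sub_inv hn h1 (loop_inv (fun _ _ L hL => pass_inv hn hc hL) (mrg_inv hn h0 hab))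

theorem join_inv (hn : 0 < n) {m R i j : ℕ} {ps : List ℕ} (hi : i < m) (hj : j < m)
    (hii : leB R i i = true) (hjj : leB R j j = true) (h : joinOK n m R ps i j = true)
    (h1 : Inv n ρ (ps.getD i 0)) (h2 : Inv n ρ (ps.getD j 0)) :
    ∃ k < m, leB R i k = true ∧ leB R j k = true ∧ Inv n ρ (ps.getD k 0) := by
  simp only [joinOK, frc_eq, Bool.or_eq_true, anyB_iff, Bool.and_eq_true] at h
  rcases h with (h | h) | ⟨k, hk, ⟨a1, a2⟩, a3⟩
  · exact ⟨j, hj, h, hjj, h2⟩
  · exact ⟨i, hi, hii, h, h1⟩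
  · exact ⟨k, hk, a1, a2, sub_inv hn a3 (loop_inv (fun z _ L hL => mrg_inv hn hL (h2 z)) h1)⟩

end

/-- the relation coded by `R` on `{0, …, m - 1}` is the order of a representable poset -/
def RepRel (m R : ℕ) : Prop :=
  ∃ (M : Type) (_ : PartialOrder M), Representable M ∧ ∃ e : ℕ → M, (∀ x, ∃ i < m, e i = x) ∧
    ∀ i < m, ∀ j < m, (e i ≤ e j ↔ leB R i j = true)

theorem check_sound {n m fuel R C : ℕ} {ops ps : List ℕ}
    (h : check n m fuel R ops ps C = true) : RepRel m R := by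
  simp only [check, Bool.and_eq_true, allB_iff, Nat.blt_eq, Nat.beq_eq, beq_iff_eq,
    Bool.or_eq_true, Bool.not_eq_true', Nat.ble_eq] at h
  obtain ⟨⟨⟨⟨⟨hn, hm⟩, h0⟩, h1⟩, h2⟩, h3⟩ := h
  have : NeZero n := ⟨hn.ne'⟩
  have hof : ∀ L y, lk n L (Fin.ofNat n y) = lk n L y := fun L y => lk_mod n L y
  let op : (t : Fin ops.length) → (Fin 1 → Fin n) → Fin n :=
    fun t x => Fin.ofNat n (lk n (ops.getD t 0) (x 0))
  have hE : ∀ i < m, ∀ (t : Fin ops.length) (x y : Fin 1 → Fin n),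
      (∀ j, Setoid.ker (fun x : Fin n => lk n (ps.getD i 0) x) (x j) (y j)) →
      Setoid.ker (fun x : Fin n => lk n (ps.getD i 0) x) (op t x) (op t y) := by
    intro i hi t x y hxy
    have a1 : lk n (ps.getD i 0) (x 0) = lk n (ps.getD i 0) (y 0) := hxy 0
    change lk n (ps.getD i 0) (Fin.ofNat n _) = lk n (ps.getD i 0) (Fin.ofNat n _)
    rw [hof, hof, h2 i hi t t.2 _ (x 0).2, h2 i hi t t.2 _ (y 0).2, a1]
  let e : ℕ → Cong (ar := fun _ => 1) op := fun i =>
    if hi : i < m then ⟨_, hE i hi⟩ else ⟨_, hE 0 hm⟩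
  have he : ∀ i < m, ∀ x y : Fin n,
      (e i).1 x y ↔ lk n (ps.getD i 0) x = lk n (ps.getD i 0) y := by
    intro i hi x y
    rw [show e i = ⟨_, hE i hi⟩ from dif_pos hi]
    rfl
  have hidem : ∀ i < m, ∀ x, lk n (ps.getD i 0) x = lk n (ps.getD i 0) (lk n (ps.getD i 0) x) :=
    fun i hi => (subB_iff hn).1 (((h1 i hi).2 i hi).1.1 ▸ (h1 i hi).1)
  have hle : ∀ i < m, ∀ j < m, (e i ≤ e j ↔ leB R i j = true) := by
    intro i hi j hj
    rw [((h1 i hi).2 j hj).1.1, subB_iff hn]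
    constructor
    · intro hij x
      have a1 : (e i).1 (Fin.ofNat n x) (Fin.ofNat n (lk n (ps.getD i 0) x)) := by
        rw [he i hi, hof, hof]
        exact hidem i hi x
      have a2 := (he j hj _ _).1 (hij a1)
      rwa [hof, hof] at a2
    · intro hs x y hxy
      have a1 := (he i hi x y).1 hxy
      refine (he j hj x y).2 ?_
      rw [hs, a1, ← hs]
  refine ⟨Cong (ar := fun _ => 1) op, inferInstance,
    ⟨Fin n, inferInstance, inferInstance, _, _, op, ⟨OrderIso.refl _⟩⟩, e, fun r => ?_, hle⟩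
  let ρ : Setoid ℕ := r.1.comap (Fin.ofNat n)
  have hρ : ∀ x y, ρ x y ↔ r.1 (Fin.ofNat n x) (Fin.ofNat n y) := fun _ _ => Iff.rfl
  have hmod : ∀ x, ρ x (x % n) := by
    intro x
    rw [hρ, show Fin.ofNat n (x % n) = Fin.ofNat n x from Fin.ext (Nat.mod_mod _ _)]
  have hc : ∀ t < ops.length, ∀ x y, ρ x y →
      ρ (lk n (ops.getD t 0) x) (lk n (ops.getD t 0) y) := by
    intro t ht x y hxy
    have := r.2 ⟨t, ht⟩ (fun _ => Fin.ofNat n x) (fun _ => Fin.ofNat n y) fun _ => hxy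
    simp only [op, hof] at this
    exact this
  have hI0 : Inv n ρ (ps.getD 0 0) := by
    intro x
    rw [← lk_mod, h0 _ (Nat.mod_lt x hn)]
    exact hmod x
  have hfin : ∀ x : Fin n, Fin.ofNat n (x : ℕ) = x := fun x => Fin.ext (Nat.mod_eq_of_lt x.2)
  classical
  have hP := Nat.findGreatest_spec (P := fun i => i < m ∧ Inv n ρ (ps.getD i 0)) (Nat.zero_le m)
    ⟨hm, hI0⟩
  have hG : ∀ k < m, Inv n ρ (ps.getD k 0) →
      k ≤ Nat.findGreatest (fun i => i < m ∧ Inv n ρ (ps.getD i 0)) m :=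
    fun k hk hI => Nat.le_findGreatest hk.le ⟨hk, hI⟩
  generalize Nat.findGreatest (fun i => i < m ∧ Inv n ρ (ps.getD i 0)) m = i at hP hG
  obtain ⟨hi, hI⟩ := hP
  refine ⟨i, hi, Subtype.ext (Setoid.ext fun x y => ⟨fun hxy => ?_, fun hxy => ?_⟩)⟩
  · have a1 := (he i hi x y).1 hxy
    have a2 := hI x
    rw [a1] at a2
    have a3 := ρ.trans' a2 (ρ.symm' (hI y))
    rwa [hρ, hfin, hfin] at a3
  · have a0 : ρ x y := by rwa [hρ, hfin, hfin]
    have a1 := pair_inv hn hmod hc hI0 h3 _ _ x.2 _ y.2 rfl a0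
    have a2 := h3 _ x.2 _ y.2
    simp only [pairOK, frc_eq, Bool.and_eq_true, Nat.beq_eq, Nat.blt_eq] at a2
    obtain ⟨⟨b1, b2⟩, -⟩ := a2
    obtain ⟨k, hk, c1, c2, c3⟩ := join_inv hn hi b1 (h1 i hi).1 (h1 _ b1).1
      ((h1 i hi).2 _ b1).2 hI a1
    have hki : k = i := by
      refine le_antisymm (hG k hk c3) ?_
      rcases ((h1 i hi).2 k hk).1.2 with d | d
      · rw [d] at c1
        exact absurd c1 (by simp)
      · exact d
    subst hki
    exact (hle _ b1 _ hk).2 c2 ((he _ b1 x y).2 b2)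

end Vale.Agent.P183
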