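import Mathlib

/-! # P183: definitions used in the final statements -/

namespace Vale.Agent.P183

/-- the congruences of the algebra with carrier `A` and operations `op i` of arity `ar i`,
ordered by inclusion -/
abbrev Cong {A : Type} {n : ℕ} {ar : Fin n → ℕ} (op : (i : Fin n) → (Fin (ar i) → A) → A) : Type :=
  {r : Setoid A // ∀ (i : Fin n) (x y : Fin (ar i) → A),
    (∀ j, r (x j) (y j)) → r (op i x) (op i y)}

/-- `L` is isomorphic to the whole congruence lattice of a finite algebra -/
def Representable (L : Type) [LE L] : Prop :=
  ∃ (A : Type) (_ : Finite A) (_ : Nonempty A) (n : ℕ) (ar : Fin n → ℕ)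
    (op : (i : Fin n) → (Fin (ar i) → A) → A), Nonempty (Cong op ≃o L)

/-- `L` is isomorphic to a full interval `[H, G]` of the subgroup lattice of a finite group -/
def IsInterval (L : Type) [LE L] : Prop :=
  ∃ (G : Type) (_ : Group G) (_ : Finite G) (H : Subgroup G), Nonempty (Set.Ici H ≃o L)

/-- the exceptional seven-element lattice, as a family of sets ordered by inclusion: the
lattice `2 × 3` (`∅, {0}, {1}, {0,1}, {0,2}, univ`) with one more element `{3}` that is both an
atom and a coatom -/
abbrev L7 : Type :=
  {S : Finset (Fin 4) // S ∈ ({∅, {0}, {1}, {0, 1}, {0, 2}, {3}, Finset.univ} :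
    Finset (Finset (Fin 4)))}

end Vale.Agent.P183
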