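import Mathlib

/-! # P183: overgroups of `SL(2,2)` in `SL(2,F)` for a finite field `F` of characteristic two -/

namespace Vale.Agent.P183

open Matrix

abbrev SL2 (F : Type) [Field F] : Type := Matrix.SpecialLinearGroup (Fin 2) F

variable {F : Type} [Field F] [CharP F 2]

/-- the matrix with rows `(a, b)` and `(c, d)` -/
def mk (a b c d : F) (h : a * d + b * c = 1) : SL2 F :=
  ⟨!![a, b; c, d], by rw [det_fin_two_of]; grind⟩

@[simp] theorem mk00 (a b c d : F) (h) : mk a b c d h 0 0 = a := rfl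
@[simp] theorem mk01 (a b c d : F) (h) : mk a b c d h 0 1 = b := rfl
@[simp] theorem mk10 (a b c d : F) (h) : mk a b c d h 1 0 = c := rfl
@[simp] theorem mk11 (a b c d : F) (h) : mk a b c d h 1 1 = d := rfl

theorem det2 (g : SL2 F) : g 0 0 * g 1 1 + g 0 1 * g 1 0 = 1 := by
  have := g.2
  rw [det_fin_two] at this
  change g 0 0 * g 1 1 - g 0 1 * g 1 0 = 1 at this
  grind

omit [CharP F 2] in
theorem ext2 {g h : SL2 F} : g = h ↔
    g 0 0 = h 0 0 ∧ g 0 1 = h 0 1 ∧ g 1 0 = h 1 0 ∧ g 1 1 = h 1 1 := by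
  constructor
  · rintro rfl
    exact ⟨rfl, rfl, rfl, rfl⟩
  · rintro ⟨h1, h2, h3, h4⟩
    refine Matrix.SpecialLinearGroup.ext g h ?_
    simp only [Fin.forall_fin_two]
    exact ⟨⟨h1, h2⟩, h3, h4⟩

omit [CharP F 2] in
theorem mul2 (g h : SL2 F) (i j : Fin 2) : (g * h) i j = g i 0 * h 0 j + g i 1 * h 1 j := by
  change (g.1 * h.1) i j = _
  rw [mul_apply, Fin.sum_univ_two]

omit [CharP F 2] in
theorem one00 : (1 : SL2 F) 0 0 = 1 := rfl
omit [CharP F 2] in
theorem one01 : (1 : SL2 F) 0 1 = 0 := rfl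
omit [CharP F 2] in
theorem one10 : (1 : SL2 F) 1 0 = 0 := rfl
omit [CharP F 2] in
theorem one11 : (1 : SL2 F) 1 1 = 1 := rfl

theorem inv2 (g : SL2 F) : g⁻¹ = mk (g 1 1) (g 0 1) (g 1 0) (g 0 0)
    (by have := det2 g; grind) := by
  refine inv_eq_of_mul_eq_one_right ?_
  have := det2 g
  simp only [ext2, mul2, mk00, mk01, mk10, mk11, one00, one01, one10, one11]
  grind

/-- transvection -/
def tv (x : F) : SL2 F := mk 1 x 0 1 (by simp)

/-- the swap -/
def sw : SL2 F := mk 0 1 1 0 (by simp)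

/-- diagonal matrix -/
def dg (l : F) (h : l ≠ 0) : SL2 F := mk l 0 0 l⁻¹ (by simp [h])

theorem tv_mul (x y : F) : tv x * tv y = tv (x + y) := by
  simp only [tv, ext2, mul2, mk00, mk01, mk10, mk11]
  grind

theorem tv_zero : tv (0 : F) = 1 := by
  simp only [tv, ext2, mk00, mk01, mk10, mk11, one00, one01, one10, one11, and_self]

theorem sw_sw : (sw : SL2 F) * sw = 1 := by
  simp only [sw, ext2, mul2, mk00, mk01, mk10, mk11, one00, one01, one10, one11]
  grind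

theorem tr_of_sq {w : SL2 F} (h : w * w = 1) : w 0 0 = w 1 1 := by
  have := det2 w
  simp only [ext2, mul2, one00, one01, one10, one11] at h
  grind

theorem sq_of_tr {w : SL2 F} (h : w 0 0 = w 1 1) : w * w = 1 := by
  have := det2 w
  simp only [ext2, mul2, one00, one01, one10, one11]
  grind

theorem odd_order [Finite F] {g : SL2 F} (hg : g 0 0 ≠ g 1 1) : Odd (orderOf g) := by
  rw [← Nat.not_even_iff_odd]
  rintro ⟨m, hm⟩
  have hpos := orderOf_pos g
  have h1 : g ^ m * g ^ m = 1 := by rw [← pow_add, ← hm, pow_orderOf_eq_one]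
  have h2 : g ^ m ≠ 1 := pow_ne_one_of_lt_orderOf (by omega) (by omega)
  have h3 : g * g ^ m = g ^ m * g := by rw [← pow_succ, ← pow_succ']
  have h4 := tr_of_sq h1
  have h5 := det2 (g ^ m)
  generalize g ^ m = w at h2 h3 h4 h5
  apply h2
  simp only [ext2, mul2, one00, one01, one10, one11] at h3 ⊢
  have e1 : w 0 1 = 0 := by grind
  have e2 : w 1 0 = 0 := by grind
  grind

theorem exists_swap {G : Type} [Group G] {K : Subgroup G} {u v : G} (hu : u ∈ K) (hv : v ∈ K)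
    (hu2 : u * u = 1) (hv2 : v * v = 1) (ho : Odd (orderOf (u * v))) :
    ∃ z ∈ K, z * z = 1 ∧ z * u * z = v := by
  obtain ⟨k, hk⟩ := ho
  have h1 : (u * v) ^ (2 * k + 1) = 1 := by rw [← hk, pow_orderOf_eq_one]
  have hs : SemiconjBy u (u * v) (u * v)⁻¹ := by
    rw [SemiconjBy, _root_.mul_inv_rev, inv_eq_of_mul_eq_one_right hu2,
      inv_eq_of_mul_eq_one_right hv2, ← mul_assoc, hu2, one_mul, mul_assoc, hu2, mul_one]
  have h2 : u * (u * v) ^ k = ((u * v) ^ k)⁻¹ * u := by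
    rw [← inv_pow]
    exact (hs.pow_right k).eq
  refine ⟨(u * v) ^ k * u, K.mul_mem (K.pow_mem (K.mul_mem hu hv) k) hu, ?_, ?_⟩
  · calc (u * v) ^ k * u * ((u * v) ^ k * u) = (u * v) ^ k * (u * (u * v) ^ k) * u := by
          simp only [mul_assoc]
      _ = 1 := by rw [h2, mul_inv_cancel_left, hu2]
  · have h3 : (u * v) ^ k * (u * v) ^ k = (u * v)⁻¹ := by
      refine eq_inv_of_mul_eq_one_left ?_
      rw [← pow_add, ← pow_succ, ← two_mul, h1]
    calc (u * v) ^ k * u * u * ((u * v) ^ k * u)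
        = (u * v) ^ k * (u * u) * (u * v) ^ k * u := by simp only [mul_assoc]
      _ = v := by
        rw [hu2, mul_one, h3, _root_.mul_inv_rev, inv_mul_cancel_right,
          inv_eq_of_mul_eq_one_right hv2]

variable [Finite F] {K : Subgroup (SL2 F)}

/-- the key involution -/
theorem key (ht : tv 1 ∈ K) {g : SL2 F} (hg : g ∈ K) (hc : g 1 0 ≠ 0) {r : F} (hr : tv r ∈ K)
    (hr0 : r ≠ 0) : ∃ z ∈ K, r * z 1 0 ^ 2 = g 1 0 ^ 2 ∧ z 0 0 = z 1 1 ∧
      z 0 0 * g 1 0 = g 0 0 * z 1 0 := by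
  have hd := det2 g
  have e00 : (g * tv 1 * g⁻¹ : SL2 F) 0 0 = 1 + g 0 0 * g 1 0 := by
    simp only [inv2, tv, mul2, mk00, mk01, mk10, mk11]
    grind
  have e10 : (g * tv 1 * g⁻¹ : SL2 F) 1 0 = g 1 0 ^ 2 := by
    simp only [inv2, tv, mul2, mk00, mk01, mk10, mk11]
    grind
  have e11 : (g * tv 1 * g⁻¹ : SL2 F) 1 1 = 1 + g 0 0 * g 1 0 := by
    simp only [inv2, tv, mul2, mk00, mk01, mk10, mk11]
    grind
  have hv : g * tv 1 * g⁻¹ ∈ K := K.mul_mem (K.mul_mem hg ht) (K.inv_mem hg)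
  generalize g * tv 1 * g⁻¹ = v at e00 e10 e11 hv
  obtain ⟨z, hz, hz2, hzv⟩ := exists_swap hr hv (sq_of_tr rfl) (sq_of_tr (e00.trans e11.symm))
    (odd_order (by
      simp only [tv, mul2, mk00, mk01, mk10, mk11, e00, e10, e11]
      grind))
  have h4 := tr_of_sq hz2
  have h5 := det2 z
  simp only [tv, ext2, mul2, mk00, mk01, mk10, mk11, e00, e10, e11] at hzv
  have a1 : r * z 1 0 ^ 2 = g 1 0 ^ 2 := by grind
  have a2 : r * z 0 0 * z 1 0 = g 0 0 * g 1 0 := by grind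
  refine ⟨z, hz, a1, h4, ?_⟩
  refine mul_left_cancel₀ hc ?_
  grind

omit [Finite F] in
theorem conj_upper {g : SL2 F} (hg : g ∈ K) (hc : g 1 0 = 0) {x : F} (hx : tv x ∈ K) :
    tv (g 0 0 ^ 2 * x) ∈ K := by
  have hd := det2 g
  have : tv (g 0 0 ^ 2 * x) = g * tv x * g⁻¹ := by
    simp only [inv2, tv, ext2, mul2, mk00, mk01, mk10, mk11]
    grind
  rw [this]
  exact K.mul_mem (K.mul_mem hg hx) (K.inv_mem hg)

theorem exists_dg (ht : tv 1 ∈ K) (hs : sw ∈ K) {r : F} (hr : tv r ∈ K) (hr0 : r ≠ 0) :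
    ∃ l, ∃ h : l ≠ 0, l ^ 2 = r ∧ dg l h ∈ K := by
  obtain ⟨z, hz, h1, h2, h3⟩ := key ht hs (by simp [sw]) hr hr0
  have hd := det2 z
  simp only [sw, mk00, mk10] at h1 h3
  have h0 : z 0 1 ≠ 0 := by grind
  refine ⟨z 0 1, h0, by grind, ?_⟩
  have : dg (z 0 1) h0 = z * sw := by
    simp only [dg, sw, ext2, mul2, mk00, mk01, mk10, mk11]
    grind
  rw [this]
  exact K.mul_mem hz hs

theorem tv_mul_mem (ht : tv 1 ∈ K) (hs : sw ∈ K) {r x : F} (hr : tv r ∈ K) (hx : tv x ∈ K) :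
    tv (r * x) ∈ K := by
  by_cases hr0 : r = 0
  · rw [hr0, zero_mul, tv_zero]
    exact K.one_mem
  · obtain ⟨l, h, h1, h2⟩ := exists_dg ht hs hr hr0
    have := conj_upper h2 rfl hx
    rwa [show dg l h 0 0 = l from rfl, h1] at this

/-- the ring of parameters of the transvections in `K` -/
def parR (ht : tv 1 ∈ K) (hs : sw ∈ K) : Subring F where
  carrier := {x | tv x ∈ K}
  one_mem' := ht
  zero_mem' := by
    change tv 0 ∈ K
    rw [tv_zero]
    exact K.one_mem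
  add_mem' := by
    intro a b ha hb
    change tv (a + b) ∈ K
    rw [← tv_mul]
    exact K.mul_mem ha hb
  mul_mem' := fun ha hb => tv_mul_mem ht hs ha hb
  neg_mem' := by
    intro a ha
    rwa [CharTwo.neg_eq]

omit [CharP F 2] in
theorem inv_mem_of_finite (R : Subring F) {x : F} (hx : x ∈ R) : x⁻¹ ∈ R := by
  by_cases h0 : x = 0
  · rw [h0, _root_.inv_zero]
    exact R.zero_mem
  · have hp := orderOf_pos (Units.mk0 x h0)
    have h1 : x ^ orderOf (Units.mk0 x h0) = 1 := by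
      have := congrArg Units.val (pow_orderOf_eq_one (Units.mk0 x h0))
      rwa [Units.val_pow_eq_pow_val, Units.val_mk0, Units.val_one] at this
    obtain ⟨m, hm⟩ := Nat.exists_eq_succ_of_ne_zero hp.ne'
    rw [hm, pow_succ] at h1
    rw [← eq_inv_of_mul_eq_one_left h1]
    exact R.pow_mem hx m

/-- the field of parameters of the transvections in `K` -/
def par (ht : tv 1 ∈ K) (hs : sw ∈ K) : Subfield F where
  toSubring := parR ht hs
  inv_mem' := fun _ hx => inv_mem_of_finite (parR ht hs) hx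

theorem mem_par (ht : tv 1 ∈ K) (hs : sw ∈ K) {x : F} : x ∈ par ht hs ↔ tv x ∈ K := Iff.rfl

theorem mem_of_sq (E : Subfield F) {x : F} (hx : x ^ 2 ∈ E) : x ∈ E := by
  have hinj : Function.Injective (fun y : E => y ^ 2) := by
    intro a b hab
    have : (a : F) ^ 2 = (b : F) ^ 2 := by simpa using congrArg Subtype.val hab
    exact Subtype.ext (by grind)
  obtain ⟨y, hy⟩ := Finite.surjective_of_injective hinj ⟨_, hx⟩
  have h1 : (y : F) ^ 2 = x ^ 2 := by simpa using congrArg Subtype.val hy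
  have : x = y := by grind
  rw [this]
  exact y.2

theorem dg_mem (ht : tv 1 ∈ K) (hs : sw ∈ K) {l : F} (h : l ≠ 0) (hl : l ∈ par ht hs) :
    dg l h ∈ K := by
  obtain ⟨m, hm, h1, h2⟩ := exists_dg ht hs ((mem_par ht hs).1 (pow_mem hl 2)) (pow_ne_zero 2 h)
  have : m = l := by grind
  subst this
  exact h2

omit [Finite F] in
theorem upper_eq {g : SL2 F} (hc : g 1 0 = 0) :
    ∃ h : g 0 0 ≠ 0, g = dg (g 0 0) h * tv (g 0 1 / g 0 0) ∧ g 1 1 = (g 0 0)⁻¹ := by
  have hd := det2 g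
  have h0 : g 0 0 ≠ 0 := by grind
  refine ⟨h0, ?_, by grind⟩
  simp only [dg, tv, ext2, mul2, mk00, mk01, mk10, mk11]
  grind

theorem upper_par (ht : tv 1 ∈ K) (hs : sw ∈ K) {g : SL2 F} (hg : g ∈ K) (hc : g 1 0 = 0) :
    g 0 0 ∈ par ht hs ∧ g 0 1 ∈ par ht hs ∧ g 1 1 ∈ par ht hs := by
  have h1 : g 0 0 ∈ par ht hs := by
    refine mem_of_sq _ ?_
    have := conj_upper hg hc ht
    rwa [mul_one] at this
  obtain ⟨h0, h2, h3⟩ := upper_eq hc
  have h4 : g 0 1 / g 0 0 ∈ par ht hs := by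
    rw [mem_par, ← K.mul_mem_cancel_left (dg_mem ht hs h0 h1), ← h2]
    exact hg
  refine ⟨h1, ?_, h3 ▸ inv_mem h1⟩
  have := mul_mem h4 h1
  rwa [div_mul_cancel₀ _ h0] at this

theorem upper_mem (ht : tv 1 ∈ K) (hs : sw ∈ K) {g : SL2 F} (hc : g 1 0 = 0)
    (h1 : g 0 0 ∈ par ht hs) (h2 : g 0 1 ∈ par ht hs) : g ∈ K := by
  obtain ⟨h0, h3, -⟩ := upper_eq hc
  rw [h3]
  exact K.mul_mem (dg_mem ht hs h0 h1) ((mem_par ht hs).1 (div_mem h2 h1))

omit [Finite F] in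
theorem reduce {g : SL2 F} (hc : g 1 0 ≠ 0) :
    (sw * tv (g 0 0 / g 1 0) * g : SL2 F) 1 0 = 0 ∧
    (sw * tv (g 0 0 / g 1 0) * g : SL2 F) 0 0 = g 1 0 ∧
    (sw * tv (g 0 0 / g 1 0) * g : SL2 F) 0 1 = g 1 1 := by
  simp only [sw, tv, mul2, mk00, mk01, mk10, mk11]
  grind

theorem mem_of_par (ht : tv 1 ∈ K) (hs : sw ∈ K) {g : SL2 F} (h : ∀ i j, g i j ∈ par ht hs) :
    g ∈ K := by
  by_cases hc : g 1 0 = 0
  · exact upper_mem ht hs hc (h 0 0) (h 0 1)
  · obtain ⟨h1, h2, h3⟩ := reduce hc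
    have := upper_mem ht hs h1 (by rw [h2]; exact h 1 0) (by rw [h3]; exact h 1 1)
    rwa [K.mul_mem_cancel_left
      (K.mul_mem hs ((mem_par ht hs).1 (div_mem (h 0 0) (h 1 0))))] at this

theorem par_of_mem (ht : tv 1 ∈ K) (hs : sw ∈ K) {r : F} (hr : tv r ∈ K) (hr0 : r ≠ 0)
    (hr1 : r ≠ 1) {g : SL2 F} (hg : g ∈ K) : ∀ i j, g i j ∈ par ht hs := by
  simp only [Fin.forall_fin_two]
  by_cases hc : g 1 0 = 0
  · obtain ⟨h1, h2, h3⟩ := upper_par ht hs hg hc
    exact ⟨⟨h1, h2⟩, hc ▸ zero_mem _, h3⟩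
  · obtain ⟨z, hz, a1, a2, a3⟩ := key ht hg hc hr hr0
    obtain ⟨w, hw, b1, b2, b3⟩ := key ht hg hc ht one_ne_zero
    have dz := det2 z
    have dw := det2 w
    have hz0 : z 1 0 ≠ 0 := by grind
    have hw0 : w 1 0 ≠ 0 := by grind
    have c1 : z 0 0 = g 0 0 / g 1 0 * z 1 0 := by grind
    have c2 : w 0 0 = g 0 0 / g 1 0 * w 1 0 := by grind
    have hy : g 0 0 / g 1 0 ∈ par ht hs := by
      generalize g 0 0 / g 1 0 = y at c1 c2
      have e10 : (z * w : SL2 F) 1 0 = 0 := by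
        simp only [mul2]
        grind
      obtain ⟨h1, h2, h3⟩ := upper_par ht hs (K.mul_mem hz hw) e10
      have e : (z * w : SL2 F) 0 1 =
          y * ((z * w : SL2 F) 0 0 + (z * w : SL2 F) 1 1) := by
        simp only [mul2]
        refine mul_left_cancel₀ (mul_ne_zero hz0 hw0) ?_
        grind
      have hne : (z * w : SL2 F) 0 0 + (z * w : SL2 F) 1 1 ≠ 0 := by
        simp only [mul2]
        intro h0
        have : z 1 0 ^ 2 = w 1 0 ^ 2 := by grind
        grind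
      rw [← div_eq_iff hne] at e
      rw [← e]
      exact div_mem h2 (add_mem h1 h3)
    obtain ⟨h1, h2, h3⟩ := reduce hc
    obtain ⟨k1, k2, -⟩ := upper_par ht hs
      (K.mul_mem (K.mul_mem hs ((mem_par ht hs).1 hy)) hg) h1
    rw [h2] at k1
    rw [h3] at k2
    have k0 : g 0 0 ∈ par ht hs := by
      have := mul_mem hy k1
      rwa [div_mul_cancel₀ _ hc] at this
    refine ⟨⟨k0, ?_⟩, k1, k2⟩
    have hd := det2 g
    have : g 0 1 = (1 + g 0 0 * g 1 1) / g 1 0 := by grind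
    rw [this]
    exact div_mem (add_mem (one_mem _) (mul_mem k0 k2)) k1

/-- trace dichotomy when the only transvections are the obvious ones -/
theorem dichotomy (ht : tv 1 ∈ K) (hs : sw ∈ K) (h : ∀ r, tv r ∈ K → r = 0 ∨ r = 1) {g : SL2 F}
    (hg : g ∈ K) : g 0 0 = g 1 1 ∨ g 0 0 + g 1 1 = g 1 0 := by
  have up : ∀ x ∈ K, x 1 0 = 0 → x 0 0 = 1 ∧ x 1 1 = 1 ∧ (x 0 1 = 0 ∨ x 0 1 = 1) := by
    intro x hx hc
    obtain ⟨h1, h2, h3⟩ := upper_par ht hs hx hc
    have := det2 x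
    have := h _ h1
    have := h _ h2
    have := h _ h3
    grind
  by_cases hc : g 1 0 = 0
  · have := up g hg hc
    grind
  · obtain ⟨z, hz, a1, a2, a3⟩ := key ht hg hc ht one_ne_zero
    have a4 : z 1 0 = g 1 0 := by grind
    have a5 : z 0 0 = g 0 0 := by grind
    have dz := det2 z
    have dg := det2 g
    have := up _ (K.mul_mem hz hg) (by simp only [mul2]; grind)
    simp only [mul2] at this
    rcases this with ⟨b1, b2, b3 | b3⟩
    · left
      grind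
    · right
      grind

theorem small_inv (ht : tv 1 ∈ K) (hs : sw ∈ K) (h : ∀ r, tv r ∈ K → r = 0 ∨ r = 1) {u : SL2 F}
    (hu : u ∈ K) (htr : u 0 0 = u 1 1) : u = 1 ∨ u 0 0 + u 0 1 + u 1 0 = 0 := by
  have h1 := dichotomy ht hs h (K.mul_mem (K.mul_mem hu ht) hs)
  have h2 := dichotomy ht hs h (K.mul_mem (K.mul_mem (K.mul_mem (K.mul_mem hs hu) hs) ht) hs)
  have hd := det2 u
  simp only [tv, sw, ext2, mul2, mk00, mk01, mk10, mk11, one00, one01, one10, one11] at h1 h2 ⊢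
  grind

theorem small (ht : tv 1 ∈ K) (hs : sw ∈ K) (h : ∀ r, tv r ∈ K → r = 0 ∨ r = 1) {g : SL2 F}
    (hg : g ∈ K) : (g 0 1 = g 1 0 ∧ g 0 0 + g 1 1 = g 1 0) ∨
      (g 0 0 = g 1 1 ∧ g 0 0 + g 0 1 + g 1 0 = 0) := by
  rcases dichotomy ht hs h hg with h1 | h1
  · rcases small_inv ht hs h hg h1 with h2 | h2
    · left
      simp only [h2, one00, one01, one10, one11]
      grind
    · exact Or.inr ⟨h1, h2⟩
  · have := small_inv ht hs h (K.mul_mem hg ht) (by
      simp only [tv, mul2, mk00, mk01, mk10, mk11]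
      grind)
    simp only [tv, ext2, mul2, mk00, mk01, mk10, mk11, one00, one01, one10, one11] at this
    grind

end Vale.Agent.P183
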