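import Vale.Agent.P183.Chk

/-! # P183: enumeration of the small lattices -/

namespace Vale.Agent.P183

theorem iso_of_rel {L M : Type} [PartialOrder L] [PartialOrder M] {m : ℕ} (φ : ℕ → L) (e : ℕ → M)
    (hφ : ∀ x, ∃ i < m, φ i = x) (he : ∀ x, ∃ i < m, e i = x)
    (h : ∀ i < m, ∀ j < m, (φ i ≤ φ j ↔ e i ≤ e j)) : Nonempty (M ≃o L) := by
  choose s hs hs' using he
  refine ⟨RelIso.ofSurjective (OrderEmbedding.ofMapLEIff (fun c => φ (s c)) fun c c' => ?_) ?_⟩
  · rw [h _ (hs c) _ (hs c'), hs', hs']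
  · intro x
    obtain ⟨i, hi, rfl⟩ := hφ x
    refine ⟨e i, le_antisymm ?_ ?_⟩
    · exact (h _ (hs _) _ hi).2 (hs' _).le
    · exact (h _ hi _ (hs _)).2 (hs' _).ge

def enum (chk : ℕ → Bool) (ps : List ℕ) : ℕ → Bool :=
  List.rec chk (fun p _ ih R => ih R && frc (R ||| 2 ^ p) ih) ps

theorem enum_sound {chk : ℕ → Bool} (B : ℕ → Bool) {ps : List ℕ} {R : ℕ}
    (h : enum chk ps R = true) :
    ∃ R', chk R' = true ∧ ∀ t, R'.testBit t = (R.testBit t || (decide (t ∈ ps) && B t)) := by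
  induction ps generalizing R with
  | nil => exact ⟨R, h, fun t => by simp⟩
  | cons p ps ih =>
    change (enum chk ps R && frc (R ||| 2 ^ p) (enum chk ps)) = true at h
    rw [frc_eq, Bool.and_eq_true] at h
    cases hB : B p
    · obtain ⟨R', h1, h2⟩ := ih h.1
      refine ⟨R', h1, fun t => ?_⟩
      rw [h2]
      by_cases ht : t = p
      · simp [ht, hB]
      · simp [ht]
    · obtain ⟨R', h1, h2⟩ := ih h.2
      refine ⟨R', h1, fun t => ?_⟩
      rw [h2, Nat.testBit_or, Nat.testBit_two_pow]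
      by_cases ht : t = p
      · simp [ht, hB]
      · simp [ht, Ne.symm ht]

def isLat (m R : ℕ) : Bool :=
  (allB m fun i => allB m fun j => !leB R i j || allB m fun k => !leB R j k || leB R i k) &&
  allB m fun i => allB m fun j => anyB m fun k => leB R i k && leB R j k &&
    allB m fun l => !(leB R i l && leB R j l) || leB R k l

def isoB (m R c s : ℕ) : Bool :=
  (allB m fun i => Nat.blt (s / 8 ^ i % 8) m) &&
  (allB m fun j => anyB m fun i => Nat.beq (s / 8 ^ i % 8) j) &&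
  allB m fun i => allB m fun j => leB R i j == leB c (s / 8 ^ i % 8) (s / 8 ^ j % 8)

def chkL (m : ℕ) (cat : List ℕ) (cert : List (ℕ × ℕ × ℕ)) (R : ℕ) : Bool :=
  !isLat m R ||
    cert.any fun c => Nat.beq c.1 R && (cat.any (Nat.beq c.2.1) && isoB m R c.2.1 c.2.2)

def side (m R : ℕ) (ps : List ℕ) : Bool :=
  allB m fun i => allB m fun j =>
    (!leB R i j || Nat.beq i j || Nat.beq i 0 || Nat.beq (j + 1) m) &&
    (leB R i j || decide (8 * i + j ∈ ps) || Nat.blt j i)

theorem RepRel.of_iso {m R c s : ℕ} (h : isoB m R c s = true) (hc : RepRel m c) : RepRel m R := by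
  simp only [isoB, Bool.and_eq_true, allB_iff, anyB_iff, Nat.blt_eq, Nat.beq_eq, beq_iff_eq] at h
  obtain ⟨⟨h1, h2⟩, h3⟩ := h
  obtain ⟨M, _, hM, e, he, hle⟩ := hc
  refine ⟨M, inferInstance, hM, fun i => e (s / 8 ^ i % 8), fun x => ?_, fun i hi j hj => ?_⟩
  · obtain ⟨j, hj, rfl⟩ := he x
    obtain ⟨i, hi, rfl⟩ := h2 j hj
    exact ⟨i, hi, rfl⟩
  · rw [h3 i hi j hj]
    exact hle _ (h1 i hi) _ (h1 j hj)

theorem rep_of_enum {m R : ℕ} {ps cat : List ℕ} {cert : List (ℕ × ℕ × ℕ)} (hm : m ≤ 8)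
    (hcat : ∀ c ∈ cat, RepRel m c) (hs : side m R ps = true)
    (h : enum (chkL m cat cert) ps R = true) (L : Type) [Lattice L] [Finite L] [Nonempty L]
    (hL : Nat.card L = m) : Representable L := by
  classical
  have := Fintype.ofFinite L
  have hm0 : 0 < m := hL ▸ Nat.card_pos
  let _ : Fintype (LinearExtension L) := ‹Fintype L›
  let ψ : Fin m ≃o LinearExtension L :=
    monoEquivOfFin (LinearExtension L) (Nat.card_eq_fintype_card.symm.trans hL)
  let φ : ℕ → L := fun i => if hi : i < m then ψ ⟨i, hi⟩ else ψ ⟨0, hm0⟩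
  have hφ : ∀ i (hi : i < m), φ i = ψ ⟨i, hi⟩ := fun i hi => dif_pos hi
  have hsurj : ∀ x, ∃ i < m, φ i = x := fun x =>
    ⟨ψ.symm x, (ψ.symm x).2, (hφ _ _).trans (ψ.apply_symm_apply x)⟩
  have hmono : ∀ i < m, ∀ j < m, φ i ≤ φ j → i ≤ j := by
    intro i hi j hj hij
    rw [hφ i hi, hφ j hj] at hij
    exact ψ.le_iff_le.1 ((toLinearExtension (α := L)).monotone hij)
  have hbot : ∀ x, φ 0 ≤ x := by
    obtain ⟨i, hi, h1⟩ := hsurj (Finset.univ.inf' Finset.univ_nonempty id)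
    have h2 : ∀ x, φ i ≤ x := fun x => h1 ▸ Finset.inf'_le id (Finset.mem_univ x)
    obtain rfl : i = 0 := Nat.le_zero.1 (hmono i hi 0 hm0 (h2 _))
    exact h2
  have htop : ∀ j, j + 1 = m → ∀ x, x ≤ φ j := by
    intro j hj
    obtain ⟨i, hi, h1⟩ := hsurj (Finset.univ.sup' Finset.univ_nonempty id)
    have h2 : ∀ x, x ≤ φ i := fun x => h1 ▸ Finset.le_sup' id (Finset.mem_univ x)
    have := hmono j (by omega) i hi (h2 _)
    obtain rfl : i = j := by omega
    exact h2
  obtain ⟨R', h1, h2⟩ := enum_sound (fun t => decide (φ (t / 8) ≤ φ (t % 8))) h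
  have hR : ∀ i < m, ∀ j < m, (leB R' i j = true ↔ φ i ≤ φ j) := by
    intro i hi j hj
    have a := (allB_iff.1 (allB_iff.1 hs i hi)) j hj
    have e1 : (8 * i + j) / 8 = i := by omega
    have e2 : (8 * i + j) % 8 = j := by omega
    simp only [Bool.and_eq_true, Bool.or_eq_true, Bool.not_eq_true', Nat.beq_eq, Nat.blt_eq,
      decide_eq_true_eq] at a
    rw [leB, h2, e1, e2]
    simp only [Bool.and_eq_true, Bool.or_eq_true, decide_eq_true_eq]
    change (leB R i j = true ∨ _) ↔ _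
    constructor
    · rintro (b | b)
      · rcases a.1 with ((c | c) | c) | c
        · rw [c] at b
          exact absurd b (by simp)
        · rw [c]
        · rw [c]
          exact hbot _
        · exact htop j c _
      · exact b.2
    · intro b
      rcases a.2 with (c | c) | c
      · exact Or.inl c
      · exact Or.inr ⟨c, b⟩
      · exact absurd (hmono i hi j hj b) (by omega)
  have hlat : isLat m R' = true := by
    simp only [isLat, Bool.and_eq_true, allB_iff, anyB_iff, Bool.or_eq_true, Bool.not_eq_true',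
      ← Bool.not_eq_true]
    refine ⟨fun i hi j hj => ?_, fun i hi j hj => ?_⟩
    · rw [← imp_iff_not_or]
      intro hij k hk
      rw [← imp_iff_not_or, hR j hj k hk, hR i hi k hk]
      exact ((hR i hi j hj).1 hij).trans
    · obtain ⟨k, hk, h3⟩ := hsurj (φ i ⊔ φ j)
      refine ⟨k, hk, ⟨(hR i hi k hk).2 (h3 ▸ le_sup_left), (hR j hj k hk).2 (h3 ▸ le_sup_right)⟩,
        fun l hl => ?_⟩
      rw [← imp_iff_not_or, hR i hi l hl, hR j hj l hl, hR k hk l hl, h3]
      exact fun h4 => sup_le h4.1 h4.2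
  rw [chkL, hlat, Bool.not_true, Bool.false_or, List.any_eq_true] at h1
  obtain ⟨c, -, h3⟩ := h1
  simp only [Bool.and_eq_true, List.any_eq_true, Nat.beq_eq] at h3
  obtain ⟨-, ⟨c', hc', rfl⟩, h4⟩ := h3
  obtain ⟨M, _, ⟨A, a1, a2, n, ar, op, ⟨i1⟩⟩, e, he, hle⟩ := RepRel.of_iso h4 (hcat _ hc')
  obtain ⟨i2⟩ := iso_of_rel φ e hsurj he fun i hi j hj => by rw [hle i hi j hj, hR i hi j hj]
  exact ⟨A, a1, a2, n, ar, op, ⟨i1.trans i2⟩⟩

end Vale.Agent.P183
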