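import Vale.Agent.P183.Defs

/-! # P183: an interval of a subgroup lattice is the congruence lattice of a coset action -/

namespace Vale.Agent.P183

namespace RepAux

variable {G : Type} [Group G] (H : Subgroup G)

/-- the subgroup attached to an invariant equivalence relation on the coset space -/
def sub (r : Setoid (G ⧸ H)) (hr : ∀ (g : G) a b, r a b → r (g • a) (g • b)) : Subgroup G where
  carrier := {g | r (g : G ⧸ H) ((1 : G) : G ⧸ H)}
  one_mem' := r.refl' _
  mul_mem' := by
    intro a b ha hb
    have := hr a _ _ hb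
    simp only [MulAction.Quotient.smul_mk, smul_eq_mul, mul_one] at this
    exact r.trans' this ha
  inv_mem' := by
    intro a ha
    have := hr a⁻¹ _ _ ha
    simp only [MulAction.Quotient.smul_mk, smul_eq_mul, mul_one, inv_mul_cancel] at this
    exact r.symm' this

theorem rel_iff (r : Setoid (G ⧸ H)) (hr : ∀ (g : G) a b, r a b → r (g • a) (g • b)) (a b : G) :
    r (a : G ⧸ H) (b : G ⧸ H) ↔ b⁻¹ * a ∈ sub H r hr := by
  constructor
  · intro h
    have := hr b⁻¹ _ _ h
    simp only [MulAction.Quotient.smul_mk, smul_eq_mul, inv_mul_cancel] at this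
    exact this
  · intro h
    have := hr b _ _ h
    simp only [MulAction.Quotient.smul_mk, smul_eq_mul, mul_one, mul_inv_cancel_left] at this
    exact this

theorem le_sub (r : Setoid (G ⧸ H)) (hr : ∀ (g : G) a b, r a b → r (g • a) (g • b)) :
    H ≤ sub H r hr := by
  intro g hg
  have : (g : G ⧸ H) = ((1 : G) : G ⧸ H) := by
    rw [QuotientGroup.eq]
    simpa using hg
  change r (g : G ⧸ H) ((1 : G) : G ⧸ H)
  rw [this]

end RepAux

open RepAux

theorem rep_of_interval {L : Type} [LE L] (h : IsInterval L) : Representable L := by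
  obtain ⟨G, _, _, H, ⟨e⟩⟩ := h
  obtain ⟨n, ⟨φ⟩⟩ := Finite.exists_equiv_fin G
  refine ⟨G ⧸ H, inferInstance, inferInstance, n, fun _ => 1, fun i x => φ.symm i • x 0,
    ⟨OrderIso.trans ?_ e⟩⟩
  have inv : ∀ r : Cong (A := G ⧸ H) (ar := fun _ : Fin n => 1) (fun i x => φ.symm i • x 0),
      ∀ (g : G) a b, r.1 a b → r.1 (g • a) (g • b) := by
    intro r g a b hab
    have := r.2 (φ g) (fun _ => a) (fun _ => b) fun _ => hab
    simpa using this
  refine RelIso.ofSurjective (OrderEmbedding.ofMapLEIff
    (fun r => (⟨sub H r.1 (inv r), le_sub H r.1 (inv r)⟩ : Set.Ici H)) fun r r' => ?_) ?_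
  · constructor
    · intro hle a b hab
      induction a using QuotientGroup.induction_on
      induction b using QuotientGroup.induction_on
      exact (rel_iff H _ (inv r') _ _).2 (hle ((rel_iff H _ (inv r) _ _).1 hab))
    · intro hle g hg
      exact hle hg
  · rintro ⟨K, hK'⟩
    have hK : H ≤ K := hK'
    have key : ∀ a b : G, Setoid.ker (Subgroup.quotientMapOfLE hK) (a : G ⧸ H) (b : G ⧸ H) ↔
        a⁻¹ * b ∈ K := by
      intro a b
      rw [Setoid.ker_def, Subgroup.quotientMapOfLE_apply_mk, Subgroup.quotientMapOfLE_apply_mk,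
        QuotientGroup.eq]
    have hinv : ∀ (g : G) (a b : G ⧸ H), Setoid.ker (Subgroup.quotientMapOfLE hK) a b →
        Setoid.ker (Subgroup.quotientMapOfLE hK) (g • a) (g • b) := by
      intro g a b h0
      induction a using QuotientGroup.induction_on
      induction b using QuotientGroup.induction_on
      simp only [MulAction.Quotient.smul_mk, smul_eq_mul, key] at h0 ⊢
      simpa [mul_assoc] using h0
    refine ⟨⟨Setoid.ker (Subgroup.quotientMapOfLE hK), fun i x y hxy => hinv _ _ _ (hxy 0)⟩, ?_⟩
    refine Subtype.ext (Subgroup.ext fun g => ?_)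
    refine (key g 1).trans ?_
    simp

end Vale.Agent.P183
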