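import Vale.Agent.P183.Dick
import Vale.Agent.P183.Rep

/-! # P183: the interval `[SL(2,2), SL(2,64)]` -/

namespace Vale.Agent.P183

open Matrix

variable {F : Type} [Field F] [CharP F 2]

/-- matrices with entries fixed by `x ↦ x ^ 2 ^ k` -/
def SS (k : ℕ) : Subgroup (SL2 F) where
  carrier := {g | ∀ i j, g i j ^ 2 ^ k = g i j}
  one_mem' := by
    simp only [Set.mem_setOf_eq, Fin.forall_fin_two, one00, one01, one10, one11]
    simp
  mul_mem' := by
    intro a b ha hb i j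
    have : Fact (Nat.Prime 2) := ⟨Nat.prime_two⟩
    rw [mul2, add_pow_char_pow, mul_pow, mul_pow, ha, ha, hb, hb]
  inv_mem' := by
    intro a ha
    simp only [Set.mem_setOf_eq, Fin.forall_fin_two, inv2, mk00, mk01, mk10, mk11] at ha ⊢
    tauto

theorem mem_SS {k : ℕ} {g : SL2 F} : g ∈ SS k ↔ ∀ i j, g i j ^ 2 ^ k = g i j := Iff.rfl

section torus

variable {w : F} (hw : w ^ 2 + w + 1 = 0)

/-- the torus centralising the element of order three -/
def cc : Fˣ →* SL2 F where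
  toFun u := mk (w * u + w ^ 2 * ↑u⁻¹) (u + ↑u⁻¹) (u + ↑u⁻¹) (w ^ 2 * u + w * ↑u⁻¹) (by
    have := u.mul_inv
    grind)
  map_one' := by
    simp only [ext2, mk00, mk01, mk10, mk11, one00, one01, one10, one11, inv_one, Units.val_one]
    grind
  map_mul' u v := by
    simp only [ext2, mul2, mk00, mk01, mk10, mk11, _root_.mul_inv_rev, Units.val_mul]
    grind

theorem cc00 (u : Fˣ) : cc hw u 0 0 = w * u + w ^ 2 * ↑u⁻¹ := rfl
theorem cc01 (u : Fˣ) : cc hw u 0 1 = u + ↑u⁻¹ := rfl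
theorem cc10 (u : Fˣ) : cc hw u 1 0 = u + ↑u⁻¹ := rfl
theorem cc11 (u : Fˣ) : cc hw u 1 1 = w ^ 2 * u + w * ↑u⁻¹ := rfl

theorem sw_cc (u : Fˣ) : sw * cc hw u = cc hw u⁻¹ * sw := by
  simp only [sw, ext2, mul2, mk00, mk01, mk10, mk11, cc00, cc01, cc10, cc11, inv_inv]
  grind

theorem sw_inv : (sw : SL2 F)⁻¹ = sw := inv_eq_of_mul_eq_one_right sw_sw

theorem cc_inj {u v : Fˣ} (h : cc hw u = cc hw v) : u = v := by
  simp only [ext2, cc00, cc01, cc10, cc11] at h
  refine Units.ext ?_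
  grind

theorem cc_ne (u v : Fˣ) : cc hw u ≠ cc hw v * sw := by
  intro h
  have h1 : cc hw (v⁻¹ * u) = sw := by rw [map_mul, map_inv, h, inv_mul_cancel_left]
  generalize v⁻¹ * u = x at h1
  simp only [sw, ext2, mk00, mk01, mk10, mk11, cc00, cc01, cc10, cc11] at h1
  grind

theorem exists_cc {g : SL2 F} (h1 : g 0 1 = g 1 0) (h2 : g 0 0 + g 1 1 = g 1 0) :
    ∃ u, g = cc hw u := by
  have hd := det2 g
  refine ⟨⟨g 1 1 + g 1 0 * w, g 1 1 + g 1 0 * w ^ 2, by grind, by grind⟩, ?_⟩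
  simp only [ext2, cc00, cc01, cc10, cc11, Units.inv_mk]
  grind

/-- the dihedral groups -/
def DD (n : ℕ) : Subgroup (SL2 F) where
  carrier := {g | ∃ u : Fˣ, u ^ n = 1 ∧ (g = cc hw u ∨ g = cc hw u * sw)}
  one_mem' := ⟨1, one_pow n, Or.inl (map_one _).symm⟩
  mul_mem' := by
    rintro a b ⟨u, hu, rfl | rfl⟩ ⟨v, hv, rfl | rfl⟩
    · exact ⟨u * v, by rw [mul_pow, hu, hv, one_mul], Or.inl (map_mul _ _ _).symm⟩
    · exact ⟨u * v, by rw [mul_pow, hu, hv, one_mul], Or.inr (by rw [map_mul, mul_assoc])⟩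
    · refine ⟨u * v⁻¹, by rw [mul_pow, inv_pow, hu, hv, inv_one, one_mul], Or.inr ?_⟩
      rw [map_mul, mul_assoc, mul_assoc, sw_cc]
    · refine ⟨u * v⁻¹, by rw [mul_pow, inv_pow, hu, hv, inv_one, one_mul], Or.inl ?_⟩
      rw [map_mul, mul_assoc, ← mul_assoc sw, sw_cc, mul_assoc, sw_sw, mul_one]
  inv_mem' := by
    rintro a ⟨u, hu, rfl | rfl⟩
    · exact ⟨u⁻¹, by rw [inv_pow, hu, inv_one], Or.inl (map_inv _ _).symm⟩
    · refine ⟨u, hu, Or.inr ?_⟩
      rw [_root_.mul_inv_rev, sw_inv, ← map_inv, sw_cc, inv_inv]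

theorem mem_DD {n : ℕ} {g : SL2 F} :
    g ∈ DD hw n ↔ ∃ u : Fˣ, u ^ n = 1 ∧ (g = cc hw u ∨ g = cc hw u * sw) := Iff.rfl

theorem cc_mem_DD {n : ℕ} {u : Fˣ} : cc hw u ∈ DD hw n ↔ u ^ n = 1 := by
  refine ⟨?_, fun h => ⟨u, h, Or.inl rfl⟩⟩
  rintro ⟨v, hv, h | h⟩
  · rwa [cc_inj hw h]
  · exact absurd h (cc_ne hw _ _)

theorem sw_mem_DD (n : ℕ) : sw ∈ DD hw n :=
  ⟨1, one_pow n, Or.inr (by rw [map_one, one_mul])⟩

theorem tv_mem_DD {n : ℕ} {x : F} (h : tv x ∈ DD hw n) : x = 0 ∨ x = 1 := by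
  obtain ⟨v, -, h | h⟩ := h
  · simp only [tv, ext2, mk00, mk01, mk10, mk11, cc00, cc01, cc10, cc11] at h
    grind
  · simp only [tv, sw, mul2, ext2, mk00, mk01, mk10, mk11, cc00, cc01, cc10, cc11] at h
    grind

theorem DD_mono {m n : ℕ} (h : m ∣ n) : DD hw m ≤ DD hw n := by
  rintro g ⟨u, hu, hg⟩
  obtain ⟨k, rfl⟩ := h
  exact ⟨u, by rw [pow_mul, hu, one_pow], hg⟩

theorem DD_le {n : ℕ} {K : Subgroup (SL2 F)} (hs : sw ∈ K) (h : ∀ u, u ^ n = 1 → cc hw u ∈ K) :
    DD hw n ≤ K := by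
  rintro g ⟨u, hu, rfl | rfl⟩
  · exact h u hu
  · exact K.mul_mem (h u hu) hs

theorem sw_mem_SS (k : ℕ) : (sw : SL2 F) ∈ SS k := by
  simp [mem_SS, Fin.forall_fin_two, sw]

theorem DD9_le : DD hw 9 ≤ SS 3 := by
  refine DD_le hw (sw_mem_SS 3) fun u hu => ?_
  have h1 := u.mul_inv
  have h2 : (u : F) ^ 9 = 1 := by rw [← Units.val_pow_eq_pow_val, hu, Units.val_one]
  simp only [mem_SS, Fin.forall_fin_two, cc00, cc01, cc10, cc11]
  generalize ((u⁻¹ : Fˣ) : F) = v at h1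
  generalize (u : F) = x at h1 h2
  have e1 : x ^ 8 = v := by grind
  have e2 : v ^ 8 = x := by grind
  have e3 : w ^ 8 = w ^ 2 := by grind
  have e4 : (w ^ 2) ^ 8 = w := by grind
  have : Fact (Nat.Prime 2) := ⟨Nat.prime_two⟩
  simp only [add_pow_char_pow, mul_pow]
  norm_num only
  simp only [e1, e2, e3, e4]
  grind

theorem DD3_le : DD hw 3 ≤ SS 2 := by
  refine DD_le hw (sw_mem_SS 2) fun u hu => ?_
  have h1 := u.mul_inv
  have h2 : (u : F) ^ 3 = 1 := by rw [← Units.val_pow_eq_pow_val, hu, Units.val_one]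
  simp only [mem_SS, Fin.forall_fin_two, cc00, cc01, cc10, cc11]
  generalize ((u⁻¹ : Fˣ) : F) = v at h1
  generalize (u : F) = x at h1 h2
  grind

/-- the primitive cube root of unity as a unit -/
def wu : Fˣ := ⟨w, w ^ 2, by grind, by grind⟩

theorem wu_pow : wu hw ^ 3 = 1 := by
  refine Units.ext ?_
  change w ^ 3 = 1
  grind

theorem wu_ne : wu hw ≠ 1 := by
  intro h
  have : w = 1 := congrArg Units.val h
  grind

theorem cc_wu : cc hw (wu hw) * sw = tv 1 := by
  simp only [tv, sw, mul2, ext2, mk00, mk01, mk10, mk11, cc00, cc01, cc10, cc11, wu, Units.inv_mk]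
  grind

theorem tv_mem_DD3 : tv 1 ∈ DD hw 3 := ⟨wu hw, wu_pow hw, Or.inr (cc_wu hw).symm⟩

end torus

omit [CharP F 2] in
theorem subgroup_units [Finite F] (U : Subgroup Fˣ) (u : Fˣ) : u ∈ U ↔ u ^ Nat.card U = 1 := by
  have : NeZero (Nat.card U) := ⟨Nat.card_pos.ne'⟩
  have hle : U ≤ rootsOfUnity (Nat.card U) F := by
    intro x hx
    rw [mem_rootsOfUnity]
    exact congrArg Subtype.val (pow_card_eq_one' (G := U) (x := ⟨x, hx⟩))
  rw [← mem_rootsOfUnity, ← Subgroup.eq_of_le_of_card_ge hle (card_rootsOfUnity F _)]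

omit [CharP F 2] in
theorem subfield_iff [Finite F] (E : Subfield F) (x : F) : x ∈ E ↔ x ^ Nat.card E = x := by
  classical
  have := Fintype.ofFinite E
  have h1 : 1 < Nat.card E := Finite.one_lt_card
  have hsub : (E : Set F) ⊆ {x | x ^ Nat.card E = x} := by
    intro y hy
    have := FiniteField.pow_card (⟨y, hy⟩ : E)
    rw [← Nat.card_eq_fintype_card] at this
    exact congrArg Subtype.val this
  have hT : {x : F | x ^ Nat.card E = x} ⊆
      ((Polynomial.X ^ Nat.card E - Polynomial.X : Polynomial F).roots.toFinset : Set F) := by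
    intro y hy
    simp only [Finset.mem_coe, Multiset.mem_toFinset,
      Polynomial.mem_roots (FiniteField.X_pow_card_sub_X_ne_zero F h1), Polynomial.IsRoot.def,
      Polynomial.eval_sub, Polynomial.eval_pow, Polynomial.eval_X]
    exact sub_eq_zero.2 hy
  have hc : {x : F | x ^ Nat.card E = x}.ncard ≤ (E : Set F).ncard := by
    refine (Set.ncard_le_ncard hT).trans ?_
    rw [Set.ncard_coe_finset]
    refine (Multiset.toFinset_card_le _).trans ((Polynomial.card_roots' _).trans ?_)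
    rw [FiniteField.X_pow_card_sub_X_natDegree_eq F h1]
    exact le_of_eq rfl
  have := Set.eq_of_subset_of_ncard_le hsub hc
  exact (Set.ext_iff.1 this x)

theorem classify [Finite F] (hF : Nat.card F = 64) {w : F} (hw : w ^ 2 + w + 1 = 0)
    {K : Subgroup (SL2 F)} (hK : DD hw 3 ≤ K) :
    K = DD hw 3 ∨ K = DD hw 9 ∨ K = DD hw 21 ∨ K = DD hw 63 ∨ K = SS 3 ∨ K = SS 2 ∨ K = ⊤ := by
  have ht := hK (tv_mem_DD3 hw)
  have hs := hK (sw_mem_DD hw 3)
  by_cases h : ∀ r, tv r ∈ K → r = 0 ∨ r = 1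
  · have hU := subgroup_units (K.comap (cc hw))
    have hKD : K = DD hw (Nat.card (K.comap (cc hw))) := by
      refine le_antisymm (fun g hg => ?_) (DD_le hw hs fun u hu => (hU u).2 hu)
      rcases small ht hs h hg with ⟨h1, h2⟩ | ⟨h1, h2⟩
      · obtain ⟨u, rfl⟩ := exists_cc hw h1 h2
        exact (cc_mem_DD hw).2 ((hU u).1 hg)
      · obtain ⟨u, hu⟩ := exists_cc hw (g := g * sw)
          (by simp only [sw, mul2, mk00, mk01, mk10, mk11]; grind)
          (by simp only [sw, mul2, mk00, mk01, mk10, mk11]; grind)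
        have h3 : cc hw u ∈ K := hu ▸ K.mul_mem hg hs
        refine ⟨u, (hU u).1 h3, Or.inr ?_⟩
        rw [← hu, mul_assoc, sw_sw, mul_one]
    have hd : Nat.card (K.comap (cc hw)) ∣ 63 := by
      have := Subgroup.card_subgroup_dvd_card (K.comap (cc hw))
      rwa [Nat.card_units, hF] at this
    have h3 : 3 ∣ Nat.card (K.comap (cc hw)) := by
      have : Fact (Nat.Prime 3) := ⟨Nat.prime_three⟩
      rw [← orderOf_eq_prime (wu_pow hw) (wu_ne hw), orderOf_dvd_iff_pow_eq_one]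
      exact (hU _).1 (hK ((cc_mem_DD hw).2 (wu_pow hw)))
    generalize Nat.card (K.comap (cc hw)) = n at hKD hd h3
    have hn : n = 3 ∨ n = 9 ∨ n = 21 ∨ n = 63 := by
      have := Nat.le_of_dvd (by norm_num) hd
      interval_cases n <;> simp_all
    rcases hn with rfl | rfl | rfl | rfl <;> simp only [hKD, true_or, or_true]
  · push Not at h
    obtain ⟨r, hr, hr0, hr1⟩ := h
    have hE := subfield_iff (par ht hs)
    have hKE : ∀ g : SL2 F, g ∈ K ↔ ∀ i j, g i j ^ Nat.card (par ht hs) = g i j := by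
      intro g
      simp only [← hE]
      exact ⟨par_of_mem ht hs hr hr0 hr1, mem_of_par ht hs⟩
    have hpow := Module.natCard_eq_pow_finrank (K := par ht hs) (V := F)
    have hr2 := (hE r).1 hr
    rw [hF] at hpow
    generalize Nat.card (par ht hs) = q at hKE hpow hr2
    generalize Module.finrank (par ht hs) F = m at hpow
    have hq : q = 2 ∨ q = 4 ∨ q = 8 ∨ q = 64 := by
      have hm : m ≠ 0 := by
        rintro rfl
        simp at hpow
      have hd : q ∣ 64 := hpow ▸ dvd_pow_self q hm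
      have hle := Nat.le_of_dvd (by norm_num) hd
      have hm7 : m < 7 := by
        by_contra hge
        have h2 : 2 ≤ q := by
          by_contra hlt
          have : q = 0 ∨ q = 1 := by omega
          rcases this with rfl | rfl
          · simp at hd
          · simp at hpow
        have := (Nat.pow_le_pow_right (by norm_num : 0 < 2) (not_lt.1 hge)).trans
          (Nat.pow_le_pow_left h2 m)
        omega
      interval_cases q <;> first | omega | (interval_cases m <;> omega)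
    rcases hq with rfl | rfl | rfl | rfl
    · exfalso
      grind
    · have : K = SS 2 := Subgroup.ext hKE
      simp only [this, true_or, or_true]
    · have : K = SS 3 := Subgroup.ext hKE
      simp only [this, true_or, or_true]
    · have : K = ⊤ := by
        refine eq_top_iff.2 fun g _ => (hKE g).2 fun i j => ?_
        have := Fintype.ofFinite F
        rw [← hF, Nat.card_eq_fintype_card, FiniteField.pow_card]
      simp only [this, or_true]

/-- the seven subgroups, indexed by subsets of `Fin 4` -/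
def sub7 {w : F} (hw : w ^ 2 + w + 1 = 0) (S : Finset (Fin 4)) : Subgroup (SL2 F) :=
  if 3 ∈ S then (if 0 ∈ S then ⊤ else SS 2) else if 2 ∈ S then SS 3 else
    if 0 ∈ S then (if 1 ∈ S then DD hw 63 else DD hw 9) else
      (if 1 ∈ S then DD hw 21 else DD hw 3)

theorem interval_iso [Finite F] (hF : Nat.card F = 64) :
    ∃ H : Subgroup (SL2 F), Nonempty (Set.Ici H ≃o L7) := by
  obtain ⟨γ, hγ⟩ := IsCyclic.exists_ofOrder_eq_natCard (α := Fˣ)
  rw [Nat.card_units, hF] at hγ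
  have hp : ∀ k : ℕ, γ ^ k = 1 ↔ 63 ∣ k := fun k => by
    rw [← orderOf_dvd_iff_pow_eq_one, hγ]
  have hv : ∀ k : ℕ, (γ : F) ^ k = 1 ↔ 63 ∣ k := fun k => by
    rw [← hp, ← Units.val_pow_eq_pow_val, Units.val_eq_one]
  have hw : ((γ : F) ^ 21) ^ 2 + (γ : F) ^ 21 + 1 = 0 := by
    have h1 := (hv 63).2 dvd_rfl
    have h2 : (γ : F) ^ 21 ≠ 1 := fun h => by simpa using (hv 21).1 h
    have h3 : ((γ : F) ^ 21) ^ 3 = 1 := by rw [← pow_mul, h1]
    generalize (γ : F) ^ 21 = x at h2 h3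
    grind
  have ha9 : ((γ ^ 7 : Fˣ) : F) ^ 9 = 1 := by
    rw [Units.val_pow_eq_pow_val, ← pow_mul]
    exact (hv _).2 dvd_rfl
  have ha3 : ((γ ^ 7 : Fˣ) : F) ^ 3 ≠ 1 := by
    rw [Units.val_pow_eq_pow_val, ← pow_mul]
    exact fun h => by simpa using (hv _).1 h
  have hb7 : ((γ ^ 9 : Fˣ) : F) ^ 7 = 1 := by
    rw [Units.val_pow_eq_pow_val, ← pow_mul]
    exact (hv _).2 dvd_rfl
  have hb1 : ((γ ^ 9 : Fˣ) : F) ≠ 1 := by
    rw [Units.val_pow_eq_pow_val]
    exact fun h => by simpa using (hv _).1 h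
  have hDa : ∀ n, cc hw (γ ^ 7) ∈ DD hw n ↔ 63 ∣ 7 * n := fun n => by
    rw [cc_mem_DD, ← pow_mul, hp]
  have hDb : ∀ n, cc hw (γ ^ 9) ∈ DD hw n ↔ 63 ∣ 9 * n := fun n => by
    rw [cc_mem_DD, ← pow_mul, hp]
  generalize γ ^ 7 = a at ha9 ha3 hDa
  generalize γ ^ 9 = b at hb7 hb1 hDb
  generalize (γ : F) ^ 21 = w at hw hDa hDb
  have hb0 := b.ne_zero
  have t1 : ∀ n, tv (b : F) ∉ DD hw n := fun n h => by
    have := tv_mem_DD hw h
    grind
  have t2 : ∀ n, tv w ∉ DD hw n := fun n h => by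
    have := tv_mem_DD hw h
    grind
  have t3 : tv (b : F) ∈ SS 3 := by
    simp only [mem_SS, Fin.forall_fin_two, tv, mk00, mk01, mk10, mk11]
    grind
  have t4 : tv (b : F) ∉ SS 2 := by
    simp only [mem_SS, Fin.forall_fin_two, tv, mk00, mk01, mk10, mk11]
    grind
  have t5 : tv w ∉ SS 3 := by
    simp only [mem_SS, Fin.forall_fin_two, tv, mk00, mk01, mk10, mk11]
    grind
  have t6 : tv w ∈ SS 2 := by
    simp only [mem_SS, Fin.forall_fin_two, tv, mk00, mk01, mk10, mk11]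
    grind
  have c1 : cc hw a ∈ SS 3 := DD9_le hw ((hDa 9).2 (by norm_num))
  have c2 : cc hw a ∉ SS 2 := fun h => by
    have h1 := h 0 1
    have h2 := a.mul_inv
    rw [cc01] at h1
    generalize ((a⁻¹ : Fˣ) : F) = v at h1 h2
    generalize (a : F) = x at h1 h2 ha9 ha3
    grind
  have c3 : cc hw b ∉ SS 2 := fun h => by
    have h1 := h 0 1
    have h2 := b.mul_inv
    rw [cc01] at h1
    generalize ((b⁻¹ : Fˣ) : F) = v at h1 h2
    generalize (b : F) = x at h1 h2 hb7 hb1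
    grind
  have c4 : cc hw b ∉ SS 3 := fun h => by
    have h1 := h 1 1
    have h2 := b.mul_inv
    have : Fact (Nat.Prime 2) := ⟨Nat.prime_two⟩
    rw [cc11, add_pow_char_pow, mul_pow, mul_pow] at h1
    generalize ((b⁻¹ : Fˣ) : F) = v at h1 h2
    generalize (b : F) = x at h1 h2 hb7 hb1
    have e1 : x ^ 2 ^ 3 = x := by grind
    have e2 : v ^ 2 ^ 3 = v := by grind
    have e3 : w ^ 2 ^ 3 = w ^ 2 := by grind
    have e4 : (w ^ 2) ^ 2 ^ 3 = w := by grind
    rw [e1, e2, e3, e4] at h1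
    have e5 : x = v := by grind
    grind
  have l39 := DD_mono hw (show 3 ∣ 9 by norm_num)
  have l321 := DD_mono hw (show 3 ∣ 21 by norm_num)
  have l363 := DD_mono hw (show 3 ∣ 63 by norm_num)
  have l963 := DD_mono hw (show 9 ∣ 63 by norm_num)
  have l2163 := DD_mono hw (show 21 ∣ 63 by norm_num)
  have l9 := DD9_le hw
  have l3 := DD3_le hw
  have l38 := l39.trans l9
  have e0 : sub7 hw ∅ = DD hw 3 := rfl
  have e1 : sub7 hw {0} = DD hw 9 := rfl
  have e2 : sub7 hw {1} = DD hw 21 := rfl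
  have e3 : sub7 hw {0, 1} = DD hw 63 := rfl
  have e4 : sub7 hw {0, 2} = SS 3 := rfl
  have e5 : sub7 hw {3} = SS 2 := rfl
  have e6 : sub7 hw Finset.univ = ⊤ := rfl
  have cases7 : ∀ x : L7, x.1 = ∅ ∨ x.1 = {0} ∨ x.1 = {1} ∨ x.1 = {0, 1} ∨ x.1 = {0, 2} ∨
      x.1 = {3} ∨ x.1 = Finset.univ := by decide
  have hle : ∀ x : L7, DD hw 3 ≤ sub7 hw x.1 := by
    intro x
    rcases cases7 x with h | h | h | h | h | h | h <;>
      simp only [h, e0, e1, e2, e3, e4, e5, e6, le_refl, le_top, l39, l321, l363, l38, l3]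
  have hwit : ∀ (x : L7) (i : Fin 4),
      (![cc hw a, cc hw b, tv (b : F), tv w] : Fin 4 → SL2 F) i ∈ sub7 hw x.1 ↔ i ∈ x.1 := by
    intro x i
    rcases cases7 x with h | h | h | h | h | h | h <;> fin_cases i <;>
      simp [h, e0, e1, e2, e3, e4, e5, e6, hDa, hDb, t1, t2, t3, t4, t5, t6, c1, c2, c3, c4]
  refine ⟨DD hw 3, ⟨(RelIso.ofSurjective (OrderEmbedding.ofMapLEIff
    (fun x : L7 => (⟨sub7 hw x.1, hle x⟩ : Set.Ici (DD hw 3))) fun x y => ?_) ?_).symm⟩⟩
  · constructor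
    · intro h i hi
      exact (hwit y i).1 (h ((hwit x i).2 hi))
    · intro h
      have h' : x.1 ⊆ y.1 := h
      change sub7 hw x.1 ≤ sub7 hw y.1
      rcases cases7 x with hx | hx | hx | hx | hx | hx | hx <;>
        rcases cases7 y with hy | hy | hy | hy | hy | hy | hy <;>
        rw [hx, hy] at h' ⊢ <;>
        first
          | exact absurd h' (by decide)
          | simp only [e0, e1, e2, e3, e4, e5, e6, le_refl, le_top, l39, l321, l363, l38, l3,
              l963, l2163, l9]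
  · rintro ⟨K, hK⟩
    have fin : ∀ x : L7, K = sub7 hw x.1 → ∃ x : L7,
        (⟨sub7 hw x.1, hle x⟩ : Set.Ici (DD hw 3)) = ⟨K, hK⟩ :=
      fun x hx => ⟨x, Subtype.ext hx.symm⟩
    rcases classify hF hw hK with h | h | h | h | h | h | h
    · exact fin ⟨∅, by decide⟩ (h.trans e0.symm)
    · exact fin ⟨{0}, by decide⟩ (h.trans e1.symm)
    · exact fin ⟨{1}, by decide⟩ (h.trans e2.symm)
    · exact fin ⟨{0, 1}, by decide⟩ (h.trans e3.symm)
    · exact fin ⟨{0, 2}, by decide⟩ (h.trans e4.symm)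
    · exact fin ⟨{3}, by decide⟩ (h.trans e5.symm)
    · exact fin ⟨Finset.univ, by decide⟩ (h.trans e6.symm)

theorem interval_L7 : IsInterval L7 := by
  have : Fact (Nat.Prime 2) := ⟨Nat.prime_two⟩
  obtain ⟨H, h⟩ := interval_iso (F := GaloisField 2 6) (GaloisField.card 2 6 (by norm_num))
  exact ⟨_, inferInstance, inferInstance, H, h⟩

theorem rep_L7 : Representable L7 := rep_of_interval interval_L7

end Vale.Agent.P183
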